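/-
helper97 -- S0355 squad (track D), leaf E1: the volume of the standard simplex
`{y ≥ 0, ∑ y ≤ 1}` in `ι → ℝ` is `1 / (card ι)!`.

Proof: Fubini induction on `Fin n` with a radius (`vol {y ≥ 0, ∑ y ≤ r} = r^n / n!`),
then transport along `ι ≃ Fin (card ι)`.
-/
import Crest.Agent.Helper28.S0355.Defs

set_option autoImplicit false
open MeasureTheory
open scoped ENNReal

namespace Crest.Agent.Helper97.S0355

/-- The simplex of radius `r` in `Fin n → ℝ`. -/
def simplexR (n : ℕ) (r : ℝ) : Set (Fin n → ℝ) := {y | (∀ i, 0 ≤ y i) ∧ ∑ i, y i ≤ r}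

/-- The model of the simplex of radius `r` in `ℝ × (Fin n → ℝ)`. -/
def simplexProd (n : ℕ) (r : ℝ) : Set (ℝ × (Fin n → ℝ)) :=
  {p | 0 ≤ p.1 ∧ (∀ i, 0 ≤ p.2 i) ∧ p.1 + ∑ i, p.2 i ≤ r}

theorem isClosed_simplexProd (n : ℕ) (r : ℝ) : IsClosed (simplexProd n r) := by
  have h1 : IsClosed {p : ℝ × (Fin n → ℝ) | 0 ≤ p.1} :=
    isClosed_le continuous_const continuous_fst
  have h2 : IsClosed {p : ℝ × (Fin n → ℝ) | ∀ i, 0 ≤ p.2 i} := by
    have : {p : ℝ × (Fin n → ℝ) | ∀ i, 0 ≤ p.2 i} = ⋂ i, {p : ℝ × (Fin n → ℝ) | 0 ≤ p.2 i} := by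
      ext p; simp
    rw [this]
    exact isClosed_iInter fun i =>
      isClosed_le continuous_const ((continuous_apply i).comp continuous_snd)
  have h3 : IsClosed {p : ℝ × (Fin n → ℝ) | p.1 + ∑ i, p.2 i ≤ r} := by
    refine isClosed_le ?_ continuous_const
    exact continuous_fst.add
      (continuous_finsetSum _ fun i _ => (continuous_apply i).comp continuous_snd)
  have : simplexProd n r = {p : ℝ × (Fin n → ℝ) | 0 ≤ p.1} ∩
      ({p : ℝ × (Fin n → ℝ) | ∀ i, 0 ≤ p.2 i} ∩ {p : ℝ × (Fin n → ℝ) | p.1 + ∑ i, p.2 i ≤ r}) := by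
    ext p; simp [simplexProd]
  rw [this]
  exact h1.inter (h2.inter h3)

theorem simplexR_succ_eq_preimage (n : ℕ) (r : ℝ) :
    simplexR (n + 1) r =
      (MeasurableEquiv.piFinSuccAbove (fun _ : Fin (n + 1) => ℝ) 0) ⁻¹' simplexProd n r := by
  ext y
  simp only [simplexR, simplexProd, Set.mem_ofPred_eq, Set.mem_preimage,
    MeasurableEquiv.piFinSuccAbove_apply, Fin.insertNthEquiv_zero, Fin.consEquiv_symm_apply,
    Fin.forall_fin_succ, Fin.sum_univ_succ]
  constructor
  · rintro ⟨⟨h0, h1⟩, h2⟩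
    exact ⟨h0, h1, h2⟩
  · rintro ⟨h0, h1, h2⟩
    exact ⟨⟨h0, h1⟩, h2⟩

theorem slice_simplexProd (n : ℕ) (r t : ℝ) :
    Prod.mk t ⁻¹' simplexProd n r = if 0 ≤ t then simplexR n (r - t) else ∅ := by
  ext y
  by_cases ht : 0 ≤ t
  · simp only [simplexProd, Set.mem_preimage, Set.mem_ofPred_eq, ht, true_and, if_true, simplexR]
    constructor
    · rintro ⟨h1, h2⟩; exact ⟨h1, by linarith⟩
    · rintro ⟨h1, h2⟩; exact ⟨h1, by linarith⟩
  · simp [simplexProd, ht]

theorem simplexR_eq_empty_of_neg (n : ℕ) (r : ℝ) (hr : r < 0) : simplexR n r = ∅ := by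
  ext y
  simp only [simplexR, Set.mem_ofPred_eq, Set.mem_empty_iff_false, iff_false, not_and, not_le]
  intro h
  have : 0 ≤ ∑ i, y i := Finset.sum_nonneg fun i _ => h i
  linarith

theorem volume_simplexR (n : ℕ) : ∀ r : ℝ, 0 ≤ r →
    volume (simplexR n r) = ENNReal.ofReal (r ^ n / (n.factorial : ℝ)) := by
  induction n with
  | zero =>
    intro r hr
    have : simplexR 0 r = Set.univ := by
      ext y; simp [simplexR, hr]
    rw [this, volume_pi, Measure.pi_univ]
    simp
  | succ n ih =>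
    intro r hr
    rw [simplexR_succ_eq_preimage,
      (volume_preserving_piFinSuccAbove (fun _ : Fin (n + 1) => ℝ) 0).measure_preimage_equiv]
    rw [Measure.volume_eq_prod, Measure.prod_apply (isClosed_simplexProd n r).measurableSet]
    have hfun : (fun t : ℝ => volume (Prod.mk t ⁻¹' simplexProd n r)) =
        Set.indicator (Set.Icc 0 r)
          (fun t : ℝ => ENNReal.ofReal ((r - t) ^ n / (n.factorial : ℝ))) := by
      funext t
      rw [slice_simplexProd]
      by_cases ht : t ∈ Set.Icc 0 r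
      · rw [Set.indicator_of_mem ht, if_pos ht.1]
        exact ih (r - t) (by linarith [ht.2])
      · rw [Set.indicator_of_notMem ht]
        by_cases h0 : 0 ≤ t
        · rw [if_pos h0, simplexR_eq_empty_of_neg, measure_empty]
          have : ¬ t ≤ r := fun h => ht ⟨h0, h⟩
          linarith
        · rw [if_neg h0, measure_empty]
    rw [hfun, lintegral_indicator measurableSet_Icc]
    have hcont : Continuous (fun t : ℝ => (r - t) ^ n / (n.factorial : ℝ)) := by fun_prop
    rw [← ofReal_integral_eq_lintegral_ofReal]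
    · congr 1
      rw [integral_Icc_eq_integral_Ioc, ← intervalIntegral.integral_of_le hr]
      have h1 : ∫ t in (0 : ℝ)..r, (r - t) ^ n / (n.factorial : ℝ) =
          (∫ t in (0 : ℝ)..r, (r - t) ^ n) / (n.factorial : ℝ) :=
        intervalIntegral.integral_div _ _
      rw [h1, intervalIntegral.integral_comp_sub_left (fun x => x ^ n) r, integral_pow]
      simp only [sub_self, sub_zero]
      rw [Nat.factorial_succ]
      have hn : (n.factorial : ℝ) ≠ 0 := by positivity
      have hn1 : ((n : ℝ) + 1) ≠ 0 := by positivity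
      push_cast
      field_simp
      ring
    · exact hcont.continuousOn.integrableOn_compact isCompact_Icc
    · refine (ae_restrict_iff' measurableSet_Icc).mpr (Filter.Eventually.of_forall fun t ht => ?_)
      have : 0 ≤ r - t := by linarith [ht.2]
      positivity

theorem volume_simplex (ι : Type) [Fintype ι] :
    volume {y : ι → ℝ | (∀ i, 0 ≤ y i) ∧ ∑ i, y i ≤ 1} =
      ENNReal.ofReal (1 / ((Fintype.card ι).factorial : ℝ)) := by
  classical
  set e : ι ≃ Fin (Fintype.card ι) := Fintype.equivFin ι with he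
  have hpre : {y : ι → ℝ | (∀ i, 0 ≤ y i) ∧ ∑ i, y i ≤ 1} =
      (MeasurableEquiv.piCongrLeft (fun _ : Fin (Fintype.card ι) => ℝ) e) ⁻¹'
        simplexR (Fintype.card ι) 1 := by
    ext y
    simp only [Set.mem_ofPred_eq, Set.mem_preimage, simplexR, MeasurableEquiv.coe_piCongrLeft]
    have hval : ∀ j, (Equiv.piCongrLeft (fun _ : Fin (Fintype.card ι) => ℝ) e) y j = y (e.symm j) := by
      intro j
      simp [Equiv.piCongrLeft_apply]
    constructor
    · rintro ⟨h1, h2⟩
      refine ⟨fun j => by rw [hval]; exact h1 _, ?_⟩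
      simp only [hval]
      rw [Equiv.sum_comp e.symm y]
      exact h2
    · rintro ⟨h1, h2⟩
      refine ⟨fun i => ?_, ?_⟩
      · have := h1 (e i)
        rw [hval] at this
        simpa using this
      · simp only [hval] at h2
        rw [Equiv.sum_comp e.symm y] at h2
        exact h2
  rw [hpre, (volume_measurePreserving_piCongrLeft (fun _ : Fin (Fintype.card ι) => ℝ)
    e).measure_preimage_equiv, volume_simplexR _ 1 zero_le_one]
  simp

end Crest.Agent.Helper97.S0355
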